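import Vale.Agent.P198.Parts

/-! Part 0: the word metric and the four point condition. -/

open Set

namespace Vale.Agent.P198.P0

variable {G : Type*} [Group G] {S : Finset G}

/-- Left multiplication as a graph homomorphism. -/
def lm (S : Finset G) (g : G) : cayley S →g cayley S where
  toFun x := g * x
  map_rel' := by
    intro x y h
    simp only [cayley, SimpleGraph.fromRel_adj] at h ⊢
    simpa [mul_assoc] using h

theorem conn (h : Subgroup.closure (S : Set G) = ⊤) : (cayley S).Connected := by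
  have key : ∀ g, (cayley S).Reachable 1 g := by
    intro g
    have hg : g ∈ Subgroup.closure (S : Set G) := h ▸ Subgroup.mem_top g
    induction hg using Subgroup.closure_induction with
    | mem x hx =>
      by_cases h1 : 1 = x
      · exact h1 ▸ SimpleGraph.Reachable.refl _
      · exact SimpleGraph.Adj.reachable
          ((SimpleGraph.fromRel_adj _ _ _).2 ⟨h1, Or.inl (by simpa using hx)⟩)
    | one => rfl
    | mul x y _ _ hx hy => exact hx.trans (by simpa [lm] using hy.map (lm S x))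
    | inv x _ hx => simpa [lm] using (hx.map (lm S x⁻¹)).symm
  exact ⟨fun x y => (key x).symm.trans (key y)⟩

/-- The word metric. -/
noncomputable def dd (S : Finset G) (x y : G) : ℕ := (cayley S).dist x y

theorem dd_self (x : G) : dd S x x = 0 := SimpleGraph.dist_self

theorem dd_comm (x y : G) : dd S x y = dd S y x := SimpleGraph.dist_comm

variable (hc : (cayley S).Connected)
include hc

theorem dd_tri (x y z : G) : dd S x z ≤ dd S x y + dd S y z := hc.dist_triangle

theorem dd_mul (g x y : G) : dd S (g * x) (g * y) = dd S x y := by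
  have key : ∀ g x y : G, dd S (g * x) (g * y) ≤ dd S x y := fun g x y => by
    obtain ⟨p, hp⟩ := hc.exists_walk_length_eq_dist x y
    have := SimpleGraph.dist_le (p.map (lm S g))
    rw [SimpleGraph.Walk.length_map, hp] at this
    exact this
  refine le_antisymm (key g x y) ?_
  simpa using key g⁻¹ (g * x) (g * y)

theorem walk_le {x y : G} (p : (cayley S).Walk x y) (i k : ℕ) :
    dd S (p.getVert i) (p.getVert (i + k)) ≤ k := by
  induction k with
  | zero => exact (dd_self _).le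
  | succ k ih =>
    refine (dd_tri hc _ (p.getVert (i + k)) _).trans (add_le_add ih ?_)
    rcases lt_or_ge (i + k) p.length with h | h
    · exact (SimpleGraph.dist_eq_one_iff_adj.2 (p.adj_getVert_succ h)).le
    · rw [p.getVert_of_length_le h, p.getVert_of_length_le (by omega), dd_self]
      omega

/-- Geodesics. -/
theorem geo (x y : G) : ∃ γ : ℕ → G, γ 0 = x ∧ γ (dd S x y) = y ∧
    ∀ i j, i ≤ j → j ≤ dd S x y → dd S (γ i) (γ j) = j - i := by
  obtain ⟨p, hp⟩ := hc.exists_walk_length_eq_dist x y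
  have hp' : p.length = dd S x y := hp
  have h1 : p.getVert (dd S x y) = y := hp' ▸ p.getVert_length
  refine ⟨p.getVert, p.getVert_zero, h1, fun i j hij hj => ?_⟩
  have a1 := walk_le hc p 0 i
  have a2 := walk_le hc p i (j - i)
  have a3 := walk_le hc p j (dd S x y - j)
  rw [zero_add, p.getVert_zero] at a1
  rw [Nat.add_sub_cancel' hij] at a2
  rw [Nat.add_sub_cancel' hj, h1] at a3
  have a4 := dd_tri hc x (p.getVert i) y
  have a5 := dd_tri hc (p.getVert i) (p.getVert j) y
  omega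

theorem btw (x y : G) {k : ℕ} (hk : k ≤ dd S x y) :
    ∃ p, dd S x p = k ∧ dd S p y + k = dd S x y := by
  obtain ⟨γ, h0, h1, h⟩ := geo hc x y
  have a1 := h 0 k (Nat.zero_le _) hk
  have a2 := h k _ hk le_rfl
  rw [h0] at a1
  rw [h1] at a2
  exact ⟨γ k, a1, by omega⟩

theorem supp_btw {x y w : G} (p : (cayley S).Walk x y) (hp : p.length = dd S x y)
    (hw : w ∈ p.support) : dd S x w + dd S w y = dd S x y := by
  obtain ⟨i, rfl, hi⟩ := SimpleGraph.Walk.mem_support_iff_exists_getVert.1 hw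
  have a1 := walk_le hc p 0 i
  have a3 := walk_le hc p i (p.length - i)
  rw [zero_add, p.getVert_zero] at a1
  rw [Nat.add_sub_cancel' hi, p.getVert_length] at a3
  have a4 := dd_tri hc x (p.getVert i) y
  omega

theorem slim {δ : ℕ} (ht : Thin S δ) (x y z v : G) (hv : dd S x v + dd S v y = dd S x y) :
    ∃ w, (dd S y w + dd S w z = dd S y z ∨ dd S z w + dd S w x = dd S z x) ∧ dd S v w ≤ δ := by
  obtain ⟨p1, h1⟩ := hc.exists_walk_length_eq_dist x v
  obtain ⟨p2, h2⟩ := hc.exists_walk_length_eq_dist v y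
  obtain ⟨q, hq⟩ := hc.exists_walk_length_eq_dist y z
  obtain ⟨r, hr⟩ := hc.exists_walk_length_eq_dist z x
  obtain ⟨w, hw, hd⟩ := ht x y z (p1.append p2) q r
    (by rw [SimpleGraph.Walk.length_append, h1, h2]; exact hv) hq hr v
    ((SimpleGraph.Walk.mem_support_append_iff _ _).2 (Or.inl p1.end_mem_support))
  exact ⟨w, hw.imp (supp_btw hc q hq) (supp_btw hc r hr), hd⟩

omit hc in
/-- Twice the Gromov product based at the identity. -/
noncomputable def PP (S : Finset G) (x y : G) : ℕ := dd S 1 x + dd S 1 y - dd S x y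

theorem PP_add (x y : G) : PP S x y + dd S x y = dd S 1 x + dd S 1 y := by
  have := dd_tri hc x 1 y
  rw [dd_comm x 1] at this
  unfold PP
  omega

theorem four {δ : ℕ} (ht : Thin S δ) (x y z : G) :
    min (PP S x y) (PP S y z) ≤ PP S x z + (6 * δ + 2) := by
  have e1 := PP_add hc x y
  have e2 := PP_add hc y z
  have e3 := PP_add hc x z
  have t1 := dd_tri hc 1 x z
  have t2 := dd_tri hc 1 z x
  rw [dd_comm z x] at t2
  obtain ⟨p, hp1, hp2⟩ := btw hc x z (k := (dd S 1 x + dd S x z - dd S 1 z) / 2) (by omega)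
  have hp : 2 * dd S 1 p ≤ PP S x z + (4 * δ + 2) := by
    obtain ⟨w, hw, hd⟩ := slim hc ht x z 1 p (by omega)
    have a1 := dd_tri hc 1 w p
    have a2 := dd_tri hc x w p
    have a3 := dd_tri hc p w z
    have a4 := dd_tri hc x p w
    have a5 := dd_tri hc p w x
    rw [dd_comm w p] at a1 a2
    rw [dd_comm p x] at a5
    rw [dd_comm z w, dd_comm w 1, dd_comm z 1] at hw
    omega
  obtain ⟨w, hw, hd⟩ := slim hc ht x z y p (by omega)
  have a1 := dd_tri hc 1 p w
  have a2 := dd_tri hc 1 w x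
  have a3 := dd_tri hc 1 w y
  have a4 := dd_tri hc 1 w z
  rw [dd_comm z w, dd_comm z y, dd_comm y w, dd_comm y x] at hw
  omega

theorem ball_card (n : ℕ) : ∃ T : Finset G, {g | dd S 1 g ≤ n} ⊆ T ∧
    T.card ≤ (2 * S.card + 2) ^ n := by
  classical
  induction n with
  | zero =>
    refine ⟨{1}, fun g hg => ?_, by simp⟩
    have : dd S 1 g = 0 := Nat.le_zero.1 hg
    simp [← hc.dist_eq_zero_iff.1 this]
  | succ n ih =>
    obtain ⟨T, h1, h2⟩ := ih
    refine ⟨Finset.image₂ (· * ·) T (insert 1 (S ∪ S.image (·⁻¹))), fun g hg => ?_, ?_⟩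
    · rcases (show dd S 1 g ≤ n + 1 from hg).eq_or_lt with h | h
      · obtain ⟨p, hp1, hp2⟩ := btw hc 1 g (k := n) (by omega)
        have ha := SimpleGraph.dist_eq_one_iff_adj.1 (show dd S p g = 1 by omega)
        refine Finset.mem_image₂.2 ⟨p, h1 hp1.le, p⁻¹ * g, ?_, by simp⟩
        rcases ((SimpleGraph.fromRel_adj _ _ _).1 ha).2 with h3 | h3
        · simp [h3]
        · refine Finset.mem_insert_of_mem (Finset.mem_union_right _
            (Finset.mem_image.2 ⟨_, h3, by simp⟩))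
      · exact Finset.mem_image₂.2 ⟨g, h1 (Nat.lt_succ_iff.1 h), 1, by simp, by simp⟩
    · refine (Finset.card_image₂_le _ _ _).trans ?_
      rw [pow_succ]
      refine Nat.mul_le_mul h2 ((Finset.card_insert_le _ _).trans ?_)
      have a1 := Finset.card_union_le S (S.image (·⁻¹))
      have a2 := Finset.card_image_le (s := S) (f := (·⁻¹))
      omega

theorem ball_fin (n : ℕ) : {g | dd S 1 g ≤ n}.Finite := by
  obtain ⟨T, h, -⟩ := ball_card hc n
  exact T.finite_toSet.subset h

theorem dd_inv (x y : G) : dd S 1 (x⁻¹ * y) = dd S x y := by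
  rw [← dd_mul hc x]; simp

theorem len_inv (x : G) : dd S 1 x⁻¹ = dd S 1 x := by
  rw [← dd_mul hc x, dd_comm]; simp

theorem len_mul (x y : G) : dd S 1 (x * y) ≤ dd S 1 x + dd S 1 y := by
  have := dd_tri hc 1 x (x * y)
  rwa [← dd_inv hc x (x * y), inv_mul_cancel_left] at this

theorem mid {e : ℕ} (h4 : ∀ x y z : G, min (PP S x y) (PP S y z) ≤ PP S x z + e) :
    ∃ N : ℕ, ∀ (x y : G) (l : ℕ), {g | dd S 1 g = l ∧ dd S 1 (g⁻¹ * x) = dd S 1 x ∧
      dd S 1 (g * y) = dd S 1 y}.ncard ≤ N := by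
  refine ⟨{g | dd S 1 g ≤ 4 * e + 1}.ncard, fun x y l => ?_⟩
  rcases Set.eq_empty_or_nonempty {g | dd S 1 g = l ∧ dd S 1 (g⁻¹ * x) = dd S 1 x ∧
      dd S 1 (g * y) = dd S 1 y} with h | ⟨g0, a1, a2, a3⟩
  · simp [h]
  have b1 := len_mul hc x (g0⁻¹ * x)⁻¹
  have b2 := len_mul hc (g0 * y) y⁻¹
  rw [len_inv hc, show x * (g0⁻¹ * x)⁻¹ = g0 by group] at b1
  rw [len_inv hc, show g0 * y * y⁻¹ = g0 by group] at b2
  obtain ⟨u, u1, u2⟩ := btw hc 1 x (k := l / 2) (by omega)
  obtain ⟨v, v1, v2⟩ := btw hc 1 y (k := l / 2) (by omega)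
  refine Set.ncard_le_ncard_of_injOn (fun g => u⁻¹ * g * v) ?_ (fun a _ b _ h => by simpa using h)
    (ball_fin hc _)
  rintro g ⟨g1, g2, g3⟩
  obtain ⟨m, m1, m2⟩ := btw hc 1 g (k := l / 2) (by omega)
  rw [dd_inv hc] at g2
  have g4 : dd S g⁻¹ y = dd S 1 y := by rw [← dd_inv hc, inv_inv, g3]
  have n1 : dd S 1 (g⁻¹ * m) = dd S m g := by rw [dd_inv hc, dd_comm]
  have n2 : dd S (g⁻¹ * m) g⁻¹ = dd S 1 m := by
    rw [← dd_mul hc g, dd_comm]; simp
  have n3 := len_inv hc g
  have c1 := h4 m g x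
  have c2 := h4 m x u
  have c3 := h4 (g⁻¹ * m) g⁻¹ y
  have c4 := h4 (g⁻¹ * m) y v
  have d1 := PP_add hc m g
  have d2 := PP_add hc g x
  have d3 := PP_add hc x u
  have d4 := PP_add hc m u
  have d5 := PP_add hc (g⁻¹ * m) g⁻¹
  have d6 := PP_add hc g⁻¹ y
  have d7 := PP_add hc y v
  have d8 := PP_add hc (g⁻¹ * m) v
  rw [dd_comm x u] at d3
  rw [dd_comm y v] at d7
  have f1 := len_mul hc (u⁻¹ * m) ((g⁻¹ * m)⁻¹ * v)
  rw [dd_inv hc u m, dd_inv hc (g⁻¹ * m) v, dd_comm u m,
    show u⁻¹ * m * ((g⁻¹ * m)⁻¹ * v) = u⁻¹ * g * v by group] at f1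
  show dd S 1 (u⁻¹ * g * v) ≤ 4 * e + 1
  omega

end Vale.Agent.P198.P0
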