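import Vale.Agent.P198.P0.Rho

/-! Part 0: the boundary with its visual metric and its action. -/

open Set Filter Topology

namespace Vale.Agent.P198.P0

universe u

variable {G : Type u} [Group G]

namespace HD

variable (H : HD G)

/-- The boundary, to be given the visual metric. -/
def BZ : Type u := Quot (Asymp H.S)

variable {H}

/-- A ray representing a boundary point. -/
noncomputable def out (x : H.BZ) : ℕ → G := (Quot.out x : Ray H.S).1

/-- The boundary point of a ray. -/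
def cls (r : Ray H.S) : H.BZ := Quot.mk _ r

theorem out_mk (r : Ray H.S) : H.ρ (out (cls r)) r.1 = 0 :=
  (H.mk_eq_iff _ _).1 (Quot.out_eq _)

theorem ext {x y : H.BZ} (h : H.ρ (out x) (out y) = 0) : x = y :=
  (Quot.out_eq x).symm.trans (((H.mk_eq_iff _ _).2 h).trans (Quot.out_eq y))

theorem out_self (x : H.BZ) : H.ρ (out x) (out x) = 0 := H.ρ_ray_self _

theorem out_len (x : H.BZ) (n : ℕ) : H.len (out x n) = n := H.ray_len _ n

theorem out_ray (x : H.BZ) (n : ℕ) : H.ρ (out x) (fun _ => out x n) = H.q ^ n := H.ρ_ray _ n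

/-- The visual quasi-metric. -/
noncomputable def D (x y : H.BZ) : NNReal := ⟨H.ρ (out x) (out y), H.ρ_nonneg _ _⟩

theorem D_self (x : H.BZ) : D x x = 0 := NNReal.eq (out_self x)

theorem D_comm (x y : H.BZ) : D x y = D y x := NNReal.eq (H.ρ_comm _ _)

noncomputable instance : PseudoMetricSpace H.BZ := PseudoMetricSpace.ofPreNNDist D D_self D_comm

theorem dist_le (x y : H.BZ) : dist x y ≤ H.ρ (out x) (out y) :=
  PseudoMetricSpace.dist_ofPreNNDist_le D D_self D_comm x y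

theorem le_dist (x y : H.BZ) : H.ρ (out x) (out y) ≤ 2 * dist x y :=
  PseudoMetricSpace.le_two_mul_dist_ofPreNNDist D D_self D_comm
    (fun a b c d => by
      rw [← NNReal.coe_le_coe]
      push_cast
      exact H.ρ_four _ _ _ _) x y

noncomputable instance : MetricSpace H.BZ where
  eq_of_dist_eq_zero {x y} h := ext (le_antisymm (by simpa [h] using le_dist x y) (H.ρ_nonneg _ _))

theorem ex_cls (g : G) (x : H.BZ) : ∃ y : H.BZ, H.ρ (out y) (fun i => g * out x i) = 0 := by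
  obtain ⟨r, hr⟩ := H.exists_ray (H.ρ_mul g (out_self x))
  exact ⟨cls r, H.ρ_trans (out_mk r) hr⟩

noncomputable instance : SMul G H.BZ := ⟨fun g x => (ex_cls g x).choose⟩

theorem smul_spec (g : G) (x : H.BZ) : H.ρ (out (g • x)) (fun i => g * out x i) = 0 :=
  (ex_cls g x).choose_spec

noncomputable instance : MulAction G H.BZ where
  one_smul x := ext (by simpa using smul_spec 1 x)
  mul_smul g h x := by
    have a1 := smul_spec (g * h) x
    have a2 := H.ρ_trans (smul_spec g (h • x)) (H.ρ_mul g (smul_spec h x))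
    simp only [← mul_assoc] at a2
    exact ext (H.ρ_trans a1 (by rwa [ρ_comm]))

theorem cont_mk : Continuous (cls : Ray H.S → H.BZ) := by
  refine continuous_iff_continuousAt.2 fun r0 => Metric.tendsto_nhds.2 fun ε hε => ?_
  obtain ⟨n, hn⟩ := exists_pow_lt_of_lt_one (show 0 < ε / 4 by positivity) H.q_lt
  have ho : IsOpen {r : Ray H.S | r.1 n = r0.1 n} := by
    let : TopologicalSpace G := ⊥
    have : DiscreteTopology G := ⟨rfl⟩
    have hc : Continuous fun r : Ray H.S => r.1 n :=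
      (continuous_apply n).comp continuous_induced_dom
    exact (isOpen_discrete {r0.1 n}).preimage hc
  filter_upwards [ho.mem_nhds rfl] with r hr
  have a1 := H.ρ_eqv (out_mk r) (out_mk r0)
  have a2 := H.ρ_tri r.1 (fun _ => r.1 n) r0.1
  rw [ρ_ray, hr, H.ρ_comm (fun _ => r0.1 n), ρ_ray, max_self] at a2
  linarith [dist_le (cls r) (cls r0)]

theorem homeo [CompactSpace (Bdry H.S)] : Nonempty (Bdry H.S ≃ₜ H.BZ) :=
  ⟨Continuous.homeoOfEquivCompactToT2 (f := (Equiv.refl _ : Bdry H.S ≃ H.BZ))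
    (continuous_coinduced_dom.2 cont_mk)⟩

theorem ρ_eqv' {a a' : ℕ → G} (b : ℕ → G) (ha : H.ρ a a' = 0) : H.ρ a b ≤ 2 * H.ρ a' b := by
  have := H.ρ_tri a a' b
  rwa [ha, max_eq_right (H.ρ_nonneg _ _)] at this

theorem exists_pt {x y : H.BZ} (hxy : x ≠ y) : ∃ (c : ℝ) (pt : G → H.BZ), 1 ≤ c ∧
    ∀ g, H.ρ (out (pt g)) (fun _ => g) ≤ c * H.q ^ H.len g := by
  have h0 : 0 < H.ρ (out x) (out y) := lt_of_le_of_ne (H.ρ_nonneg _ _) fun h => hxy (ext h.symm)
  have key : ∀ g : G, ∃ z : H.BZ, H.ρ (out z) (fun _ => g) ≤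
      4 / H.ρ (out x) (out y) * H.q ^ H.len g := fun g => by
    obtain ⟨z, hz⟩ : ∃ z : H.BZ, H.ρ (out x) (out y) ≤ 2 * H.ρ (out z) fun _ => g⁻¹ := by
      have := H.ρ_tri (out x) (fun _ => g⁻¹) (out y)
      rcases le_total (H.ρ (out x) fun _ => g⁻¹) (H.ρ (fun _ => g⁻¹) (out y)) with h | h
      · exact ⟨y, by rwa [max_eq_right h, H.ρ_comm (fun _ => g⁻¹)] at this⟩
      · exact ⟨x, by rwa [max_eq_left h] at this⟩
    refine ⟨g • z, (ρ_eqv' _ (smul_spec g z)).trans ?_⟩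
    rw [div_mul_eq_mul_div, le_div_iff₀ h0, ← H.ρ_inv g (out z)]
    have := mul_le_mul_of_nonneg_left hz (H.ρ_nonneg (fun i => g * out z i) fun _ => g)
    linarith
  choose pt hpt using key
  refine ⟨_, pt, ?_, hpt⟩
  rw [le_div_iff₀ h0]
  linarith [H.ρ_le (out x) (out y)]

section

variable {c : ℝ} {pt : G → H.BZ} (hc : 1 ≤ c)
  (hp : ∀ g, H.ρ (out (pt g)) (fun _ => g) ≤ c * H.q ^ H.len g)
include hc hp

theorem m_le (g : G) (x : H.BZ) :
    max (dist x (pt g)) (H.q ^ H.len g) ≤ 4 * c * H.ρ (out x) fun _ => g := by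
  have a1 := H.ρ_ge (out x) g
  have a2 := pow_pos H.q_pos (H.len g)
  have a3 := H.ρ_tri (out x) (fun _ => g) (out (pt g))
  have a4 := hp g
  rw [H.ρ_comm] at a4
  have a5 : max (H.ρ (out x) fun _ => g) (H.ρ (fun _ => g) (out (pt g))) ≤
      c * H.ρ (out x) fun _ => g := max_le (by nlinarith) (by nlinarith)
  exact max_le (by nlinarith [dist_le x (pt g)]) (by nlinarith)

theorem le_m (g : G) (x : H.BZ) :
    H.ρ (out x) (fun _ => g) ≤ 4 * c * max (dist x (pt g)) (H.q ^ H.len g) := by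
  have a1 := le_max_left (dist x (pt g)) (H.q ^ H.len g)
  have a2 := le_max_right (dist x (pt g)) (H.q ^ H.len g)
  have a0 := pow_pos H.q_pos (H.len g)
  have a3 := H.ρ_tri (out x) (out (pt g)) fun _ => g
  have a4 := hp g
  have a5 := le_dist x (pt g)
  have a6 : max (H.ρ (out x) (out (pt g))) (H.ρ (out (pt g)) fun _ => g) ≤
      2 * c * max (dist x (pt g)) (H.q ^ H.len g) := max_le (by nlinarith) (by nlinarith)
  linarith

theorem mm_le (g h : G) (x y : H.BZ) :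
    max (dist x (pt g)) (H.q ^ H.len g) * max (dist y (pt h)) (H.q ^ H.len h) ≤
      16 * c ^ 2 * (H.ρ (out x) (fun _ => g) * H.ρ (out y) fun _ => h) := by
  have := mul_le_mul (m_le hc hp g x) (m_le hc hp h y) (le_max_of_le_left dist_nonneg)
    (mul_nonneg (by linarith) (H.ρ_nonneg _ _))
  linarith

theorem le_mm (g h : G) (x y : H.BZ) :
    H.ρ (out x) (fun _ => g) * H.ρ (out y) (fun _ => h) ≤ 16 * c ^ 2 *
      (max (dist x (pt g)) (H.q ^ H.len g) * max (dist y (pt h)) (H.q ^ H.len h)) := by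
  have := mul_le_mul (le_m hc hp g x) (le_m hc hp h y) (H.ρ_nonneg _ _)
    (mul_nonneg (by linarith) (le_max_of_le_left dist_nonneg))
  linarith

theorem mob_le (g : G) (x y : H.BZ) : dist (g⁻¹ • x) (g⁻¹ • y) *
    (max (dist x (pt g)) (H.q ^ H.len g) * max (dist y (pt g)) (H.q ^ H.len g)) ≤
      64 * c ^ 2 * (dist x y * H.q ^ H.len g) := by
  have a1 := (dist_le _ _).trans (H.ρ_eqv (smul_spec g⁻¹ x) (smul_spec g⁻¹ y))
  have a2 := mul_le_mul a1 (mm_le hc hp g g x y)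
    (mul_nonneg (le_max_of_le_left dist_nonneg) (le_max_of_le_left dist_nonneg))
    (mul_nonneg two_pos.le (H.ρ_nonneg _ _))
  have a3 := H.ρ_base g (out x) (out y)
  have a4 := mul_le_mul_of_nonneg_right (le_dist x y) (pow_pos H.q_pos (H.len g)).le
  have a5 := mul_le_mul_of_nonneg_left (a3.trans_le a4) (show 0 ≤ 32 * c ^ 2 by positivity)
  linarith

theorem mob_ge (g : G) (x y : H.BZ) : dist x y * H.q ^ H.len g ≤ 64 * c ^ 2 *
    (dist (g⁻¹ • x) (g⁻¹ • y) *
      (max (dist x (pt g)) (H.q ^ H.len g) * max (dist y (pt g)) (H.q ^ H.len g))) := by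
  have a0 := H.ρ_eqv ((H.ρ_comm _ _).trans (smul_spec g⁻¹ x))
    ((H.ρ_comm _ _).trans (smul_spec g⁻¹ y))
  have a1 : H.ρ (fun i => g⁻¹ * out x i) (fun i => g⁻¹ * out y i) ≤
      4 * dist (g⁻¹ • x) (g⁻¹ • y) := by linarith [le_dist (g⁻¹ • x) (g⁻¹ • y)]
  have a2 := mul_le_mul a1 (le_mm hc hp g g x y) (mul_nonneg (H.ρ_nonneg _ _) (H.ρ_nonneg _ _))
    (mul_nonneg (by norm_num) dist_nonneg)
  have a3 := H.ρ_base g (out x) (out y)
  have a4 := mul_le_mul_of_nonneg_right (dist_le x y) (pow_pos H.q_pos (H.len g)).le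
  linarith

theorem inv_le (g : G) (x : H.BZ) : max (dist (g • x) (pt g)) (H.q ^ H.len g) *
    max (dist x (pt g⁻¹)) (H.q ^ H.len g) ≤ 64 * c ^ 2 * H.q ^ H.len g := by
  have a1 := mm_le hc hp g g⁻¹ (g • x) x
  rw [show H.len g⁻¹ = H.len g from len_inv H.hc g] at a1
  have a2 := mul_le_mul_of_nonneg_right (ρ_eqv' (fun _ => g) (smul_spec g x))
    (H.ρ_nonneg (out x) fun _ => g⁻¹)
  rw [mul_assoc, ρ_inv] at a2
  have a3 := mul_le_mul_of_nonneg_left a2 (show 0 ≤ 16 * c ^ 2 by positivity)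
  have a4 : 0 ≤ c ^ 2 * H.q ^ H.len g := mul_nonneg (by positivity) (pow_pos H.q_pos _).le
  linarith

theorem inv_ge (g : G) (x : H.BZ) : H.q ^ H.len g ≤ 64 * c ^ 2 *
    (max (dist (g • x) (pt g)) (H.q ^ H.len g) * max (dist x (pt g⁻¹)) (H.q ^ H.len g)) := by
  have a1 := le_mm hc hp g g⁻¹ (g • x) x
  rw [show H.len g⁻¹ = H.len g from len_inv H.hc g] at a1
  have a2 := mul_le_mul_of_nonneg_right
    (ρ_eqv' (fun _ => g) ((H.ρ_comm _ _).trans (smul_spec g x))) (H.ρ_nonneg (out x) fun _ => g⁻¹)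
  rw [ρ_inv] at a2
  have a3 := pow_pos H.q_pos (H.len g)
  linarith

theorem surj (z : H.BZ) (n : ℕ) : ∃ g, H.len g = n ∧ dist (pt g) z ≤ 64 * c ^ 2 * H.q ^ n := by
  refine ⟨out z n, out_len z n, ?_⟩
  have a1 := m_le hc hp (out z n) z
  rw [out_ray] at a1
  have a2 := pow_pos H.q_pos n
  have a3 : 4 * c * H.q ^ n ≤ 64 * c ^ 2 * H.q ^ n :=
    mul_le_mul_of_nonneg_right (by nlinarith) a2.le
  rw [dist_comm]
  exact ((le_max_left _ _).trans a1).trans a3

theorem loc (L : ℝ) : ∃ N : ℕ, ∀ (z : H.BZ) (n : ℕ),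
    {g | H.len g = n ∧ dist (pt g) z ≤ L * H.q ^ n}.ncard ≤ N := by
  have hL := abs_nonneg L
  obtain ⟨R, hR⟩ := H.close (show 0 < 2 * (c + 2 * |L|) by linarith)
  refine ⟨{g | dd H.S 1 g ≤ R}.ncard, fun z n => Set.ncard_le_ncard_of_injOn
    (fun g => (out z n)⁻¹ * g) ?_ (fun a _ b _ h => by simpa using h) (ball_fin H.hc _)⟩
  rintro g ⟨g1, g2⟩
  show dd H.S 1 _ ≤ R
  rw [dd_inv H.hc, dd_comm]
  refine hR _ _ n g1 (out_len z n) ?_
  have a1 := H.ρ_four (fun _ => g) (out (pt g)) (out z) fun _ => out z n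
  have a2 := hp g
  have a3 := le_dist (pt g) z
  have a4 := pow_pos H.q_pos n
  have a5 := mul_le_mul_of_nonneg_right (le_abs_self L) a4.le
  have a6 := mul_nonneg hL a4.le
  have a7 := mul_le_mul_of_nonneg_right hc a4.le
  rw [ρ_const, out_ray] at a1
  rw [g1, H.ρ_comm] at a2
  have a8 : max (H.ρ (fun _ => g) (out (pt g))) (max (H.ρ (out (pt g)) (out z)) (H.q ^ n)) ≤
      (c + 2 * |L|) * H.q ^ n := max_le (by linarith) (max_le (by linarith) (by linarith))
  linarith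

theorem pair (g h : G) : dist (pt g) (pt h) ^ 2 * H.q ^ H.len (g⁻¹ * h) ≤
    64 * c ^ 2 * (H.q ^ H.len g * H.q ^ H.len h) := by
  have a1 := H.ρ_four (out (pt g)) (fun _ => g) (fun _ => h) (out (pt h))
  have a2 := hp g
  have a3 := hp h
  have a4 := H.w_ge g h
  have a5 := H.w_ge h g
  have a6 := H.w_pos g h
  rw [H.w_comm h g] at a5
  rw [H.ρ_comm] at a3
  rw [ρ_const] at a1
  have a7 : max (H.ρ (out (pt g)) fun _ => g) (max (H.w g h) (H.ρ (fun _ => h) (out (pt h)))) ≤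
      c * H.w g h := max_le (by nlinarith) (max_le (by nlinarith) (by nlinarith))
  have a8 : dist (pt g) (pt h) ≤ 8 * c * H.w g h := by nlinarith [dist_le (pt g) (pt h)]
  have a9 : H.w g h ^ 2 * H.q ^ H.len (g⁻¹ * h) = H.q ^ H.len g * H.q ^ H.len h := by
    rw [← pow_add, q_pow, q_pow, mul_comm 2, mul_comm 2, pow_mul, pow_mul, ← H.w_dist g h,
      mul_pow, len, dd_inv H.hc]
  have b1 := mul_le_mul_of_nonneg_right (pow_le_pow_left₀ dist_nonneg a8 2)
    (pow_pos H.q_pos (H.len (g⁻¹ * h))).le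
  rw [← a9]
  linarith

end

theorem card (n : ℕ) : ({g | H.len g ≤ n}.ncard : ℝ) ≤ (2 * H.S.card + 2 : ℝ) ^ (n + 1) := by
  obtain ⟨T, h1, h2⟩ := ball_card H.hc n
  have h3 := Set.ncard_le_ncard h1 T.finite_toSet
  rw [Set.ncard_coe_finset] at h3
  have h4 : (2 * H.S.card + 2) ^ n ≤ (2 * H.S.card + 2) ^ (n + 1) :=
    Nat.pow_le_pow_right (by omega) n.le_succ
  exact_mod_cast (h3.trans h2).trans h4

end HD

theorem chart {Z : Type*} [TopologicalSpace Z]
    (φ : Z ≃ₜ Metric.sphere (0 : EuclideanSpace ℝ (Fin 3)) 1) (b : Z) :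
    ∃ ψ : ℂ → Z, IsOpenEmbedding ψ ∧ range ψ = {b}ᶜ := by
  have : Fact (Module.finrank ℝ (EuclideanSpace ℝ (Fin 3)) = 2 + 1) := ⟨by simp⟩
  let s := (stereographic' 2 (φ b)).symm
  have hs : s.source = univ := stereographic'_target _
  let e := Complex.orthonormalBasisOneI.repr.toHomeomorph
  refine ⟨φ.symm ∘ s ∘ e, φ.symm.isOpenEmbedding.comp ((s.isOpenEmbedding hs).comp
    e.isOpenEmbedding), ?_⟩
  rw [range_comp, range_comp, e.surjective.range_eq, ← hs, s.image_source_eq_target,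
    show s.target = {φ b}ᶜ from stereographic'_source _, φ.symm.image_compl]
  simp

end Vale.Agent.P198.P0

namespace Vale.Agent.P198

open P0

universe u

theorem part0 (G : Type u) [Group G] : Part0 G := by
  rintro S δ hS ht ⟨φ⟩
  obtain ⟨H, rfl⟩ := exists_HD hS ht
  have := φ.symm.compactSpace
  obtain ⟨η⟩ := HD.homeo (H := H)
  have ch := chart (η.symm.trans φ)
  obtain ⟨v⟩ : Nonempty (Metric.sphere (0 : EuclideanSpace ℝ (Fin 3)) 1) :=
    (NormedSpace.sphere_nonempty.2 zero_le_one).to_subtype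
  obtain ⟨ψ, -, hψ⟩ := ch (η (φ.symm v))
  have hne : ψ 0 ≠ η (φ.symm v) := hψ.subset (mem_range_self 0)
  obtain ⟨c, pt, hc, hp⟩ := HD.exists_pt hne
  have h0 : (0 : ℝ) ≤ H.S.card := Nat.cast_nonneg _
  have h1 : 1 ≤ 64 * c ^ 2 := by nlinarith
  exact ⟨H.BZ, inferInstance, η.compactSpace, inferInstance, ⟨⟨H.len, H.q, 64 * c ^ 2,
    2 * H.S.card + 2, pt, H.q_pos, H.q_lt, h1, by linarith,
    fun x y => (HD.dist_le x y).trans ((H.ρ_le _ _).trans h1), len_inv H.hc, len_mul H.hc,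
    ball_fin H.hc, HD.card, HD.mob_le hc hp, HD.mob_ge hc hp, HD.inv_le hc hp, HD.inv_ge hc hp,
    HD.surj hc hp, HD.loc hc hp, HD.pair hc hp, mid H.hc H.h4, ch, ⟨ψ 0⟩⟩⟩⟩

end Vale.Agent.P198
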