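import Vale.Agent.P198.P0.Graph

/-! Part 0: the visual quasi-metric on sequences. -/

open Set Filter Topology

namespace Vale.Agent.P198.P0

/-- Hyperbolicity data. -/
structure HD (G : Type*) [Group G] where
  S : Finset G
  e : ℕ
  t : ℝ
  hc : (cayley S).Connected
  h4 : ∀ x y z : G, min (PP S x y) (PP S y z) ≤ PP S x z + e
  t_pos : 0 < t
  t_lt : t < 1
  half : 1 / 2 ≤ t ^ (2 * e)

variable {G : Type*} [Group G]

theorem exists_HD {S : Finset G} {δ : ℕ} (h : Subgroup.closure (S : Set G) = ⊤) (ht : Thin S δ) :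
    ∃ H : HD G, H.S = S := by
  have h0 : (0 : ℝ) ≤ (6 * δ + 2 : ℕ) := Nat.cast_nonneg _
  generalize he : 6 * δ + 2 = e at h0
  have h1 : (0 : ℝ) < 1 / (4 * e + 2) := by positivity
  have h2 : (1 : ℝ) / (4 * e + 2) ≤ 1 / 2 := one_div_le_one_div_of_le two_pos (by linarith)
  refine ⟨⟨S, e, 1 - 1 / (4 * e + 2), conn h, he ▸ four (conn h) ht, by linarith, by linarith, ?_⟩,
    rfl⟩
  have h3 := one_add_mul_le_pow (a := -(1 / (4 * e + 2) : ℝ)) (by linarith) (2 * e)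
  rw [← sub_eq_add_neg] at h3
  refine le_trans ?_ h3
  have h4 : (4 * e + 2 : ℝ) * (1 / (4 * e + 2)) = 1 := mul_one_div_cancel (by positivity)
  push_cast
  nlinarith

/-- The limit along the hyperfilter. -/
noncomputable def ul (f : ℕ → ℝ) : ℝ := limUnder (hyperfilter ℕ : Filter ℕ) f

theorem ul_tend {f : ℕ → ℝ} (h : ∀ i, f i ∈ Icc (0 : ℝ) 1) :
    Tendsto f (hyperfilter ℕ : Filter ℕ) (𝓝 (ul f)) := by
  obtain ⟨x, -, hx⟩ := isCompact_Icc.ultrafilter_le_nhds ((hyperfilter ℕ).map f)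
    (le_principal_iff.2 (mem_map.2 (Eventually.of_forall h)))
  exact tendsto_nhds_limUnder ⟨x, hx⟩

namespace HD

variable (H : HD G)

/-- Word length. -/
noncomputable def len (g : G) : ℕ := dd H.S 1 g

/-- The visual size of a pair. -/
noncomputable def w (x y : G) : ℝ := H.t ^ PP H.S x y

/-- The parameter. -/
noncomputable def q : ℝ := H.t ^ 2

theorem q_pos : 0 < H.q := pow_pos H.t_pos 2

theorem q_lt : H.q < 1 := pow_lt_one₀ H.t_pos.le H.t_lt two_ne_zero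

theorem q_pow (n : ℕ) : H.q ^ n = H.t ^ (2 * n) := (pow_mul _ _ _).symm

theorem t_anti {m n : ℕ} (h : m ≤ n) : H.t ^ n ≤ H.t ^ m :=
  pow_le_pow_of_le_one H.t_pos.le H.t_lt.le h

theorem w_pos (x y : G) : 0 < H.w x y := pow_pos H.t_pos _

theorem w_le (x y : G) : H.w x y ≤ 1 := pow_le_one₀ H.t_pos.le H.t_lt.le

theorem w_comm (x y : G) : H.w x y = H.w y x := by
  unfold w PP
  rw [dd_comm x y, add_comm]

theorem w_four (x y z u : G) : H.w x u ≤ 2 * max (H.w x y) (max (H.w y z) (H.w z u)) := by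
  have a1 := H.h4 x y u
  have a2 := H.h4 y z u
  have a3 : H.t ^ (PP H.S x u + 2 * H.e) ≤ max (H.w x y) (max (H.w y z) (H.w z u)) := by
    simp only [le_max_iff]
    rcases (by omega : PP H.S x y ≤ PP H.S x u + 2 * H.e ∨ PP H.S y z ≤ PP H.S x u + 2 * H.e ∨
      PP H.S z u ≤ PP H.S x u + 2 * H.e) with h | h | h
    exacts [Or.inl (H.t_anti h), Or.inr (Or.inl (H.t_anti h)), Or.inr (Or.inr (H.t_anti h))]
  rw [pow_add] at a3
  have a4 := mul_le_mul_of_nonneg_left H.half (H.w_pos x u).le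
  unfold w at a4 ⊢
  unfold w at a3
  linarith

theorem w_base (g x y : G) :
    H.w (g⁻¹ * x) (g⁻¹ * y) * (H.w x g * H.w y g) = H.w x y * H.q ^ H.len g := by
  unfold w len
  rw [q_pow, ← pow_add, ← pow_add, ← pow_add]
  congr 1
  have a1 := PP_add H.hc (g⁻¹ * x) (g⁻¹ * y)
  have a2 := PP_add H.hc x g
  have a3 := PP_add H.hc y g
  have a4 := PP_add H.hc x y
  rw [dd_mul H.hc, dd_inv H.hc, dd_inv H.hc, dd_comm g x, dd_comm g y] at a1
  omega

theorem w_inv (g x : G) : H.w (g * x) g * H.w x g⁻¹ = H.q ^ H.len g := by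
  unfold w len
  rw [q_pow, ← pow_add]
  congr 1
  have a1 := PP_add H.hc (g * x) g
  have a2 := PP_add H.hc x g⁻¹
  rw [dd_comm (g * x) g, ← dd_inv H.hc g (g * x), inv_mul_cancel_left] at a1
  rw [dd_comm x g⁻¹, ← dd_inv H.hc g⁻¹ x, inv_inv, len_inv H.hc] at a2
  omega

theorem w_ge (x g : G) : H.q ^ H.len g ≤ H.w x g := by
  unfold w len
  rw [q_pow]
  refine H.t_anti ?_
  have a1 := PP_add H.hc x g
  have a2 := dd_tri H.hc 1 g x
  rw [dd_comm g x] at a2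
  omega

theorem w_dist (g h : G) : H.w g h * H.t ^ dd H.S g h = H.t ^ (H.len g + H.len h) := by
  unfold w len
  rw [← pow_add, PP_add H.hc]

/-- The visual size of a pair of sequences. -/
noncomputable def ρ (a b : ℕ → G) : ℝ := ul fun i => H.w (a i) (b i)

theorem ρ_tend (a b : ℕ → G) :
    Tendsto (fun i => H.w (a i) (b i)) (hyperfilter ℕ : Filter ℕ) (𝓝 (H.ρ a b)) :=
  ul_tend fun _ => ⟨(H.w_pos _ _).le, H.w_le _ _⟩

theorem ρ_nonneg (a b : ℕ → G) : 0 ≤ H.ρ a b :=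
  ge_of_tendsto' (H.ρ_tend a b) fun _ => (H.w_pos _ _).le

theorem ρ_le (a b : ℕ → G) : H.ρ a b ≤ 1 := le_of_tendsto' (H.ρ_tend a b) fun _ => H.w_le _ _

theorem ρ_comm (a b : ℕ → G) : H.ρ a b = H.ρ b a := by
  unfold ρ
  simp only [H.w_comm (a _)]

theorem ρ_four (a b c d : ℕ → G) : H.ρ a d ≤ 2 * max (H.ρ a b) (max (H.ρ b c) (H.ρ c d)) :=
  le_of_tendsto_of_tendsto' (H.ρ_tend a d)
    (((H.ρ_tend a b).max ((H.ρ_tend b c).max (H.ρ_tend c d))).const_mul 2)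
    fun _ => H.w_four _ _ _ _

theorem ρ_const (g h : G) : H.ρ (fun _ => g) (fun _ => h) = H.w g h :=
  tendsto_nhds_unique (H.ρ_tend _ _) tendsto_const_nhds

theorem ρ_base (g : G) (a b : ℕ → G) :
    H.ρ (fun i => g⁻¹ * a i) (fun i => g⁻¹ * b i) * (H.ρ a (fun _ => g) * H.ρ b fun _ => g) =
      H.ρ a b * H.q ^ H.len g :=
  tendsto_nhds_unique ((H.ρ_tend _ _).mul ((H.ρ_tend _ _).mul (H.ρ_tend _ _)))
    (((H.ρ_tend a b).mul_const _).congr fun _ => (H.w_base _ _ _).symm)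

theorem ρ_inv (g : G) (a : ℕ → G) :
    H.ρ (fun i => g * a i) (fun _ => g) * H.ρ a (fun _ => g⁻¹) = H.q ^ H.len g :=
  tendsto_nhds_unique ((H.ρ_tend _ _).mul (H.ρ_tend _ _))
    (tendsto_const_nhds.congr fun _ => (H.w_inv _ _).symm)

theorem ρ_ge (a : ℕ → G) (g : G) : H.q ^ H.len g ≤ H.ρ a fun _ => g :=
  ge_of_tendsto' (H.ρ_tend _ _) fun _ => H.w_ge _ _

theorem w_self (x : G) : H.w x x = H.q ^ H.len x := by
  have := H.w_dist x x
  rwa [dd_self, pow_zero, mul_one, ← two_mul, ← q_pow] at this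

theorem ρ_self (a b : ℕ → G) : H.ρ b b ≤ H.ρ a b :=
  le_of_tendsto_of_tendsto' (H.ρ_tend b b) (H.ρ_tend a b) fun _ => (H.w_self _).trans_le (H.w_ge _ _)

theorem ρ_tri (a b c : ℕ → G) : H.ρ a c ≤ 2 * max (H.ρ a b) (H.ρ b c) := by
  have := H.ρ_four a b c c
  rwa [max_eq_left (H.ρ_self b c)] at this

theorem ρ_eqv {a a' b b' : ℕ → G} (ha : H.ρ a a' = 0) (hb : H.ρ b b' = 0) :
    H.ρ a b ≤ 2 * H.ρ a' b' := by
  have := H.ρ_four a a' b' b
  rwa [ha, H.ρ_comm b' b, hb, max_eq_left (H.ρ_nonneg a' b'), max_eq_right (H.ρ_nonneg a' b')]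
    at this

theorem ρ_trans {a b c : ℕ → G} (h1 : H.ρ a b = 0) (h2 : H.ρ b c = 0) : H.ρ a c = 0 := by
  have := H.ρ_tri a b c
  rw [h1, h2, max_self, mul_zero] at this
  exact le_antisymm this (H.ρ_nonneg _ _)

theorem ρ_mul (g : G) {a b : ℕ → G} (h : H.ρ a b = 0) :
    H.ρ (fun i => g * a i) (fun i => g * b i) = 0 := by
  have h1 := H.ρ_base g⁻¹ a b
  rw [h, zero_mul, inv_inv] at h1
  have h2 := fun c => (pow_pos H.q_pos _).trans_le (H.ρ_ge c g⁻¹)
  exact (mul_eq_zero.1 h1).resolve_right (mul_pos (h2 a) (h2 b)).ne'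

theorem eq_zero {x L : ℝ} (h0 : 0 ≤ x) (h : ∀ n, x ≤ L * H.q ^ n) : x = 0 := by
  have := (tendsto_pow_atTop_nhds_zero_of_lt_one H.q_pos.le H.q_lt).const_mul L
  rw [mul_zero] at this
  exact le_antisymm (ge_of_tendsto' this h) h0

theorem bdd {ε : ℝ} (hε : 0 < ε) : ∃ R : ℕ, ∀ d : ℕ, ε ≤ H.t ^ d → d ≤ R := by
  obtain ⟨R, hR⟩ := exists_pow_lt_of_lt_one hε H.t_lt
  exact ⟨R, fun d hd => le_of_not_ge fun h => (hd.trans (H.t_anti h)).not_gt hR⟩

theorem ray_len (r : Ray H.S) (n : ℕ) : H.len (r.1 n) = n := by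
  have := r.2.2 0 n
  rwa [r.2.1, Nat.dist_zero_left] at this

theorem ρ_ray (r : Ray H.S) (n : ℕ) : H.ρ r.1 (fun _ => r.1 n) = H.q ^ n := by
  refine tendsto_nhds_unique (H.ρ_tend _ _) (tendsto_const_nhds.congr' ?_)
  filter_upwards [Nat.hyperfilter_le_atTop (eventually_ge_atTop n)] with i hi
  have a1 := PP_add H.hc (r.1 i) (r.1 n)
  have a2 : dd H.S 1 (r.1 i) = i := H.ray_len r i
  have a3 : dd H.S 1 (r.1 n) = n := H.ray_len r n
  have a4 : dd H.S (r.1 i) (r.1 n) = i - n := (r.2.2 i n).trans (Nat.dist_eq_sub_of_le_right hi)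
  rw [q_pow]
  unfold w
  congr 1
  omega

theorem ρ_ray_self (r : Ray H.S) : H.ρ r.1 r.1 = 0 :=
  H.eq_zero (L := 1) (H.ρ_nonneg _ _) fun n => by
    rw [one_mul, ← H.ρ_ray r n, H.ρ_comm r.1 fun _ => r.1 n]
    exact H.ρ_self _ _

theorem close {M : ℝ} (hM : 0 < M) : ∃ R : ℕ, ∀ (g h : G) (n : ℕ), H.len g = n → H.len h = n →
    H.w g h ≤ M * H.q ^ n → dd H.S g h ≤ R := by
  obtain ⟨R, hR⟩ := H.bdd (one_div_pos.2 hM)
  refine ⟨R, fun g h n hg hh hw => hR _ ?_⟩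
  have a1 := H.w_dist g h
  rw [hg, hh, ← two_mul, ← q_pow] at a1
  have a2 := mul_le_mul_of_nonneg_right hw (pow_pos H.t_pos (dd H.S g h)).le
  rw [a1] at a2
  rw [div_le_iff₀ hM]
  exact le_of_mul_le_mul_left (a := H.q ^ n) (by linarith) (pow_pos H.q_pos n)

theorem asymp_iff (r r' : Ray H.S) : Asymp H.S r r' ↔ H.ρ r.1 r'.1 = 0 := by
  constructor
  · rintro ⟨C, h1, -⟩
    refine H.eq_zero (L := (H.q ^ C)⁻¹) (H.ρ_nonneg _ _) fun n => le_of_tendsto (H.ρ_tend _ _) ?_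
    filter_upwards [Nat.hyperfilter_le_atTop (eventually_ge_atTop n)] with i hi
    obtain ⟨j, hj⟩ := h1 i
    have a0 : dd H.S (r.1 i) (r'.1 j) ≤ C := hj
    have a1 := PP_add H.hc (r.1 i) (r'.1 i)
    have a2 : dd H.S 1 (r.1 i) = i := H.ray_len r i
    have a3 : dd H.S 1 (r'.1 i) = i := H.ray_len r' i
    have a4 : dd H.S 1 (r'.1 j) = j := H.ray_len r' j
    have a5 : dd H.S (r'.1 j) (r'.1 i) = (j - i) + (i - j) := r'.2.2 j i
    have a6 := dd_tri H.hc (r.1 i) (r'.1 j) (r'.1 i)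
    have a7 := dd_tri H.hc 1 (r.1 i) (r'.1 j)
    have a8 := dd_tri H.hc 1 (r'.1 j) (r.1 i)
    rw [dd_comm (r'.1 j)] at a8
    rw [le_inv_mul_iff₀ (pow_pos H.q_pos C), q_pow, q_pow]
    unfold w
    rw [← pow_add]
    exact H.t_anti (by omega)
  · intro h
    obtain ⟨R, hR⟩ := H.close two_pos
    have key : ∀ n, dd H.S (r.1 n) (r'.1 n) ≤ R := fun n => by
      refine hR _ _ n (H.ray_len r n) (H.ray_len r' n) ?_
      have := H.ρ_four (fun _ => r.1 n) r.1 r'.1 fun _ => r'.1 n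
      rwa [ρ_const, h, H.ρ_comm _ r.1, ρ_ray, ρ_ray, max_eq_right (pow_pos H.q_pos n).le,
        max_self] at this
    exact ⟨R, fun i => ⟨i, key i⟩, fun i => ⟨i, key i⟩⟩

theorem mk_eq_iff (r r' : Ray H.S) :
    Quot.mk (Asymp H.S) r = Quot.mk (Asymp H.S) r' ↔ H.ρ r.1 r'.1 = 0 := by
  refine ⟨fun h => ?_, fun h => Quot.sound ((H.asymp_iff r r').2 h)⟩
  have h' := Quot.eqvGen_exact h
  clear h
  induction h' with
  | rel x y h => exact (H.asymp_iff x y).1 h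
  | refl x => exact H.ρ_ray_self x
  | symm x y _ ih => rwa [ρ_comm]
  | trans x y z _ _ i1 i2 => exact H.ρ_trans i1 i2

theorem exists_ray {a : ℕ → G} (h : H.ρ a a = 0) : ∃ r : Ray H.S, H.ρ r.1 a = 0 := by
  choose γ g0 g1 g2 using fun i => geo H.hc 1 (a i)
  have big : ∀ n, ∀ᶠ i in (hyperfilter ℕ : Filter ℕ), n ≤ dd H.S 1 (a i) := fun n => by
    have h1 := H.ρ_tend a a
    rw [h] at h1
    filter_upwards [h1.eventually (gt_mem_nhds (pow_pos H.q_pos n))] with i hi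
    rw [w_self] at hi
    exact le_of_not_ge fun h2 => hi.not_ge (pow_le_pow_of_le_one H.q_pos.le H.q_lt.le h2)
  have ex : ∀ n, ∃ x, ∀ᶠ i in (hyperfilter ℕ : Filter ℕ), γ i n = x := fun n => by
    have h1 : ∀ᶠ i in (hyperfilter ℕ : Filter ℕ), ∃ x ∈ {g | dd H.S 1 g ≤ n}, γ i n = x := by
      filter_upwards [big n] with i hi
      have := g2 i 0 n (Nat.zero_le _) hi
      rw [g0] at this
      exact ⟨_, this.le, rfl⟩
    obtain ⟨x, -, hx⟩ := (Ultrafilter.eventually_exists_mem_iff (ball_fin H.hc n)).1 h1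
    exact ⟨x, hx⟩
  choose r hr using ex
  have hd : ∀ i j, i ≤ j → dd H.S (r i) (r j) = j - i := fun i j hij => by
    obtain ⟨k, h1, h2, h3⟩ := ((hr i).and ((hr j).and (big j))).exists
    rw [← h1, ← h2]
    exact g2 k i j hij h3
  have h0 : r 0 = 1 := by
    obtain ⟨k, hk⟩ := (hr 0).exists
    rw [← hk, g0]
  let R : Ray H.S := ⟨r, h0, fun i j => by
    rcases le_total i j with h | h
    · exact (hd i j h).trans (Nat.dist_eq_sub_of_le h).symm
    · exact (dd_comm _ _).trans ((hd j i h).trans (Nat.dist_eq_sub_of_le_right h).symm)⟩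
  refine ⟨R, H.eq_zero (L := 2) (H.ρ_nonneg _ _) fun n => ?_⟩
  have h1 : H.ρ (fun _ => R.1 n) a = H.q ^ n := by
    refine tendsto_nhds_unique (H.ρ_tend _ _) (tendsto_const_nhds.congr' ?_)
    filter_upwards [hr n, big n] with i h1 h2
    have a1 := PP_add H.hc (R.1 n) (a i)
    have a2 : dd H.S 1 (R.1 n) = n := H.ray_len R n
    have a3 := g2 i n _ h2 le_rfl
    rw [g1, h1] at a3
    have a4 : dd H.S (R.1 n) (a i) = dd H.S 1 (a i) - n := a3
    rw [q_pow]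
    unfold w
    congr 1
    omega
  have := H.ρ_tri R.1 (fun _ => R.1 n) a
  rwa [h1, ρ_ray, max_self] at this

end HD

end Vale.Agent.P198.P0
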